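import Mathlib
import Vale.Agent.Lib.P309.H19.Cap

/-!
# P309 (memory-sample tradeoffs for noiseless linear regression): the counting bound

Abstract form of a bounded-memory learner at the moment of its output. On a probability space
`(Ω, P)`:

* `E` is a finite-dimensional real inner product space of dimension `d` (so `E ≅ ℝ^d`), `μ` a Haar
  (Lebesgue) measure on it, and `S : Ω → S^{d-1}` is the signal, uniform on the unit sphere of `E`
  (its law is the normalized surface measure `μ.toSphere`);
* `J : Ω → Fin K` is the final state of the learner: an ARBITRARY function of everything (signal,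
  rows, internal randomness), with values in a set of `K` states (`K = 2^M` for `M` bits);
* the output is a randomized function of the final state, `out (J ω) (U ω)`, where the output
  randomness `U` is independent of the signal.

Nothing else about the learner is used: the number of samples, the rows and labels, and the
transition rules are all hidden in `J`. Then, for `0 < ε ≤ 1`,

  `P (arccos ⟪output, S⟫ ≤ ε) ≤ K · 4 · (2 ε)^(d-1)`     (same bound for `‖output - S‖ ≤ ε`),

so a learner that succeeds with probability `≥ 2/3` has `(1/(2ε))^(d-1) ≤ 6 K`, i.e.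
`M ≥ (d-1) log₂(1/(2ε)) - log₂ 6` bits, whatever its horizon `T`.

Proof: for a fixed state `j` the output `out j U` is independent of `S`, so the success probability
given that output is the normalized measure of a cap of the sphere, which is at most
`4 (2ε)^(d-1)` (the cone over the cap is covered by `⌈1/ε⌉` balls of radius `2ε`); sum over the `K`
states.
-/

open MeasureTheory Metric Set ProbabilityTheory
open scoped ENNReal

namespace Vale.Agent.Results.P309.H19_CountingBound

theorem result {E : Type*} [NormedAddCommGroup E] [InnerProductSpace ℝ E] [FiniteDimensional ℝ E]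
    [MeasurableSpace E] [BorelSpace E] (μ : Measure E) [μ.IsAddHaarMeasure]
    {Ω : Type*} [MeasurableSpace Ω] (P : Measure Ω) [IsProbabilityMeasure P]
    {𝒰 : Type*} [MeasurableSpace 𝒰]
    (S : Ω → sphere (0 : E) 1) (hS : Measurable S)
    (hlaw : P.map S = (μ.toSphere univ)⁻¹ • μ.toSphere)
    (K : ℕ) (J : Ω → Fin K) (U : Ω → 𝒰) (hU : Measurable U) (hind : IndepFun U S P)
    (out : Fin K → 𝒰 → sphere (0 : E) 1) (hout : ∀ j, Measurable (out j))
    (ε : ℝ) (hε : 0 < ε) (hε1 : ε ≤ 1) :
    P {ω | Real.arccos (inner ℝ (out (J ω) (U ω) : E) (S ω : E)) ≤ ε}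
      ≤ (K : ℝ≥0∞) * ENNReal.ofReal (4 * (2 * ε) ^ (Module.finrank ℝ E - 1)) ∧
    P {ω | ‖(out (J ω) (U ω) : E) - (S ω : E)‖ ≤ ε}
      ≤ (K : ℝ≥0∞) * ENNReal.ofReal (4 * (2 * ε) ^ (Module.finrank ℝ E - 1)) ∧
    (ENNReal.ofReal (2 / 3) ≤
        P {ω | Real.arccos (inner ℝ (out (J ω) (U ω) : E) (S ω : E)) ≤ ε} →
      (1 / (2 * ε)) ^ (Module.finrank ℝ E - 1) ≤ 6 * (K : ℝ)) := by
  set d := Module.finrank ℝ E with hd
  set c : ℝ≥0∞ := ENNReal.ofReal (4 * (2 * ε) ^ (d - 1)) with hc
  have hfin : Module.finrank ℝ E = d := rfl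
  -- each fixed state
  have hj : ∀ j : Fin K, P {ω | ‖(out j (U ω) : E) - (S ω : E)‖ ≤ ε} ≤ c := by
    intro j
    set B : Set (𝒰 × sphere (0 : E) 1) := {p | ‖(out j p.1 : E) - (p.2 : E)‖ ≤ ε} with hB
    have hBm : MeasurableSet B := by
      apply measurableSet_le _ measurable_const
      exact ((measurable_subtype_coe.comp ((hout j).comp measurable_fst)).sub
        (measurable_subtype_coe.comp measurable_snd)).norm
    have hpre : {ω | ‖(out j (U ω) : E) - (S ω : E)‖ ≤ ε} = (fun ω => (U ω, S ω)) ⁻¹' B := rfl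
    rw [hpre, ← Measure.map_apply (hU.prodMk hS) hBm,
      (indepFun_iff_map_prod_eq_prod_map_map hU.aemeasurable hS.aemeasurable).mp hind,
      Measure.prod_apply hBm]
    have hslice : ∀ u : 𝒰, (P.map S) (Prod.mk u ⁻¹' B) ≤ c := by
      intro u
      have hset : Prod.mk u ⁻¹' B = {s : sphere (0 : E) 1 | ‖(s : E) - (out j u : E)‖ ≤ ε} := by
        ext s
        simp only [hB, Set.mem_preimage, Set.mem_ofPred_eq]
        rw [norm_sub_rev]
      rw [hset, hlaw, Measure.smul_apply, smul_eq_mul]
      have hcap := Vale.Agent.Lib.P309.H19.cap_bound μ (out j u : E) (by simp)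
        ε hε hε1
      rw [hfin] at hcap
      calc (μ.toSphere univ)⁻¹ *
            μ.toSphere {s : sphere (0 : E) 1 | ‖(s : E) - (out j u : E)‖ ≤ ε}
          ≤ (μ.toSphere univ)⁻¹ * (c * μ.toSphere univ) := by
            gcongr
        _ = c * ((μ.toSphere univ)⁻¹ * μ.toSphere univ) := by
            ring
        _ ≤ c * 1 := by
            gcongr
            exact ENNReal.inv_mul_le_one _
        _ = c := mul_one c
    calc ∫⁻ u, (P.map S) (Prod.mk u ⁻¹' B) ∂(P.map U) ≤ ∫⁻ _u, c ∂(P.map U) :=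
          lintegral_mono hslice
      _ = c := by
          have : IsProbabilityMeasure (P.map U) := Measure.isProbabilityMeasure_map hU.aemeasurable
          simp
  have hchord : P {ω | ‖(out (J ω) (U ω) : E) - (S ω : E)‖ ≤ ε} ≤ (K : ℝ≥0∞) * c := by
    calc P {ω | ‖(out (J ω) (U ω) : E) - (S ω : E)‖ ≤ ε}
        ≤ P (⋃ j : Fin K, {ω | ‖(out j (U ω) : E) - (S ω : E)‖ ≤ ε}) := by
          apply measure_mono
          intro ω hω
          exact Set.mem_iUnion.mpr ⟨J ω, hω⟩
      _ ≤ ∑ j : Fin K, P {ω | ‖(out j (U ω) : E) - (S ω : E)‖ ≤ ε} :=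
          measure_iUnion_fintype_le _ _
      _ ≤ ∑ _j : Fin K, c := Finset.sum_le_sum fun j _ => hj j
      _ = (K : ℝ≥0∞) * c := by simp
  -- angle at most `ε` implies chord at most `ε`
  have hangle : ∀ a b : sphere (0 : E) 1, Real.arccos (inner ℝ (a : E) (b : E)) ≤ ε →
      ‖(a : E) - (b : E)‖ ≤ ε := by
    intro a b h
    have ha : ‖(a : E)‖ = 1 := by simp
    have hb : ‖(b : E)‖ = 1 := by simp
    have hx1 : inner ℝ (a : E) (b : E) ≤ 1 := by
      have := real_inner_le_norm (a : E) (b : E)
      rwa [ha, hb, mul_one] at this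
    have hx2 : -1 ≤ inner ℝ (a : E) (b : E) := by
      have := abs_real_inner_le_norm (a : E) (b : E)
      rw [ha, hb, mul_one] at this
      exact neg_le_of_abs_le this
    set θ := Real.arccos (inner ℝ (a : E) (b : E)) with hθ
    have hθ0 : 0 ≤ θ := Real.arccos_nonneg _
    have hcos : Real.cos θ = inner ℝ (a : E) (b : E) := Real.cos_arccos hx2 hx1
    have hsq : ‖(a : E) - (b : E)‖ ^ 2 = 2 - 2 * Real.cos θ := by
      rw [@norm_sub_sq_real, ha, hb, hcos]; ring
    have hcosle : 1 - θ ^ 2 / 2 ≤ Real.cos θ := Real.one_sub_sq_div_two_le_cos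
    have hle : ‖(a : E) - (b : E)‖ ^ 2 ≤ ε ^ 2 := by
      have : θ ^ 2 ≤ ε ^ 2 := by gcongr
      nlinarith
    exact le_of_sq_le_sq hle hε.le
  have hang : P {ω | Real.arccos (inner ℝ (out (J ω) (U ω) : E) (S ω : E)) ≤ ε} ≤ (K : ℝ≥0∞) * c :=
    (measure_mono fun ω hω => hangle _ _ hω).trans hchord
  refine ⟨hang, hchord, fun hsucc => ?_⟩
  have h1 : ENNReal.ofReal (2 / 3) ≤ ENNReal.ofReal ((K : ℝ) * (4 * (2 * ε) ^ (d - 1))) := by
    rw [ENNReal.ofReal_mul (by positivity), ENNReal.ofReal_natCast]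
    exact hsucc.trans hang
  have h2 : (2 : ℝ) / 3 ≤ (K : ℝ) * (4 * (2 * ε) ^ (d - 1)) :=
    (ENNReal.ofReal_le_ofReal_iff (by positivity)).mp h1
  have hpos : (0 : ℝ) < (2 * ε) ^ (d - 1) := by positivity
  rw [one_div, inv_pow, inv_le_iff_one_le_mul₀ hpos]
  nlinarith

end Vale.Agent.Results.P309.H19_CountingBound
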