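import Mathlib
import Vale.Agent.Results.P309.H19_CountingBound

/-!
# P309 (memory-sample tradeoffs for noiseless linear regression): the counting bound in bits

Same abstract form of a bounded-memory learner at the moment of its output as in
`H19_CountingBound`, with `K = 2^M` states (`M` bits): `S` is the signal, uniform on the unit
sphere of the `d`-dimensional space `E`; `J : Ω → Fin (2^M)` is the final state (an arbitrary
function of everything); the output is `out (J ω) (U ω)` with output randomness `U` independent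
of the signal.

* (bits form) If `0 < ε ≤ 1`, `0 < δ` and the learner has angle error at most `ε` with probability
  at least `δ`, then `(d - 1) log₂ (1 / (2 ε)) - log₂ (4 / δ) ≤ M`.
* (the regime `M ≤ c d²`) If `d ≥ 2`, `c ≥ 0`, `M ≤ c d²` and `0 < ε ≤ 2^(-(2 c d + 4))`, then the
  probability of angle error at most `ε` is at most `1/2`, and so is the probability of Euclidean
  error at most `ε`; in particular the success probability `2/3` is not reached, whatever the
  horizon of the learner.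
-/

open MeasureTheory Metric Set ProbabilityTheory
open scoped ENNReal

namespace Vale.Agent.Results.P309.H19_CountingBoundBits

theorem result {E : Type*} [NormedAddCommGroup E] [InnerProductSpace ℝ E] [FiniteDimensional ℝ E]
    [MeasurableSpace E] [BorelSpace E] (μ : Measure E) [μ.IsAddHaarMeasure]
    {Ω : Type*} [MeasurableSpace Ω] (P : Measure Ω) [IsProbabilityMeasure P]
    {𝒰 : Type*} [MeasurableSpace 𝒰]
    (S : Ω → sphere (0 : E) 1) (hS : Measurable S)
    (hlaw : P.map S = (μ.toSphere univ)⁻¹ • μ.toSphere)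
    (M : ℕ) (J : Ω → Fin (2 ^ M)) (U : Ω → 𝒰) (hU : Measurable U) (hind : IndepFun U S P)
    (out : Fin (2 ^ M) → 𝒰 → sphere (0 : E) 1) (hout : ∀ j, Measurable (out j))
    (ε : ℝ) (hε : 0 < ε) :
    (ε ≤ 1 → ∀ δ : ℝ, 0 < δ →
      ENNReal.ofReal δ ≤ P {ω | Real.arccos (inner ℝ (out (J ω) (U ω) : E) (S ω : E)) ≤ ε} →
      ((Module.finrank ℝ E : ℝ) - 1) * Real.logb 2 (1 / (2 * ε)) - Real.logb 2 (4 / δ) ≤ M) ∧
    (∀ c : ℝ, 0 ≤ c → 2 ≤ Module.finrank ℝ E →
      (M : ℝ) ≤ c * (Module.finrank ℝ E : ℝ) ^ 2 →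
      ε ≤ (2 : ℝ) ^ (-(2 * c * (Module.finrank ℝ E : ℝ) + 4)) →
      P {ω | Real.arccos (inner ℝ (out (J ω) (U ω) : E) (S ω : E)) ≤ ε} ≤ ENNReal.ofReal (1 / 2) ∧
      P {ω | ‖(out (J ω) (U ω) : E) - (S ω : E)‖ ≤ ε} ≤ ENNReal.ofReal (1 / 2) ∧
      ¬ ENNReal.ofReal (2 / 3) ≤
        P {ω | Real.arccos (inner ℝ (out (J ω) (U ω) : E) (S ω : E)) ≤ ε}) := by
  set d := Module.finrank ℝ E with hd
  -- the counting bound with `K = 2 ^ M`, in real form
  have key : ε ≤ 1 →
      P {ω | Real.arccos (inner ℝ (out (J ω) (U ω) : E) (S ω : E)) ≤ ε} ≤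
        ENNReal.ofReal ((2 : ℝ) ^ M * (4 * (2 * ε) ^ (d - 1))) ∧
      P {ω | ‖(out (J ω) (U ω) : E) - (S ω : E)‖ ≤ ε} ≤
        ENNReal.ofReal ((2 : ℝ) ^ M * (4 * (2 * ε) ^ (d - 1))) := by
    intro hε1
    have h := Vale.Agent.Results.P309.H19_CountingBound.result μ P S hS hlaw (2 ^ M) J U hU hind
      out hout ε hε hε1
    have hnat : ((2 ^ M : ℕ) : ℝ≥0∞) = ENNReal.ofReal ((2 : ℝ) ^ M) := by
      rw [← ENNReal.ofReal_natCast]
      congr 1
      norm_num
    have hcast : ((2 ^ M : ℕ) : ℝ≥0∞) * ENNReal.ofReal (4 * (2 * ε) ^ (d - 1)) =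
        ENNReal.ofReal ((2 : ℝ) ^ M * (4 * (2 * ε) ^ (d - 1))) := by
      rw [hnat, ← ENNReal.ofReal_mul (by positivity)]
    rw [← hcast]
    exact ⟨h.1, h.2.1⟩
  have hpowpos : (0 : ℝ) < (2 * ε) ^ (d - 1) := by positivity
  refine ⟨fun hε1 δ hδ hsucc => ?_, fun c hc hd2 hM hεc => ?_⟩
  · -- bits form
    have h1 : ENNReal.ofReal δ ≤ ENNReal.ofReal ((2 : ℝ) ^ M * (4 * (2 * ε) ^ (d - 1))) :=
      hsucc.trans (key hε1).1
    have h2 : δ ≤ (2 : ℝ) ^ M * (4 * (2 * ε) ^ (d - 1)) :=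
      (ENNReal.ofReal_le_ofReal_iff (by positivity)).mp h1
    have h2ε : (0 : ℝ) < 2 * ε := by positivity
    -- take logarithms to base two
    have hlog : Real.logb 2 δ ≤ Real.logb 2 ((2 : ℝ) ^ M * (4 * (2 * ε) ^ (d - 1))) :=
      Real.logb_le_logb_of_le (by norm_num) hδ h2
    have hexp : Real.logb 2 ((2 : ℝ) ^ M * (4 * (2 * ε) ^ (d - 1))) =
        (M : ℝ) + (2 + ((d - 1 : ℕ) : ℝ) * Real.logb 2 (2 * ε)) := by
      rw [Real.logb_mul (by positivity) (by positivity), Real.logb_mul (by norm_num) hpowpos.ne',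
        Real.logb_pow, Real.logb_pow, Real.logb_self_eq_one (by norm_num)]
      have h4 : Real.logb 2 4 = 2 := by
        have : (4 : ℝ) = 2 ^ (2 : ℕ) := by norm_num
        rw [this, Real.logb_pow, Real.logb_self_eq_one (by norm_num)]
        norm_num
      rw [h4]
      ring
    have hinv : Real.logb 2 (1 / (2 * ε)) = -Real.logb 2 (2 * ε) := by
      rw [one_div, Real.logb_inv]
    have hdiv : Real.logb 2 (4 / δ) = 2 - Real.logb 2 δ := by
      rw [Real.logb_div (by norm_num) hδ.ne']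
      have : (4 : ℝ) = 2 ^ (2 : ℕ) := by norm_num
      rw [this, Real.logb_pow, Real.logb_self_eq_one (by norm_num)]
      norm_num
    -- the space is not trivial: the sphere carries a probability law
    have hdpos : 1 ≤ d := by
      by_contra hcon
      have hd0 : Module.finrank ℝ E = 0 := by omega
      have hsub : Subsingleton E := Module.finrank_zero_iff.mp hd0
      have hΩ : IsEmpty Ω := ⟨fun ω => by
        have h1 : ‖((S ω : sphere (0 : E) 1) : E)‖ = 1 := by simp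
        have h2 : ((S ω : sphere (0 : E) 1) : E) = 0 := Subsingleton.elim _ _
        rw [h2, norm_zero] at h1
        exact zero_ne_one h1⟩
      have h := measure_univ (μ := P)
      rw [Measure.eq_zero_of_isEmpty P] at h
      simp at h
    rw [hinv, hdiv]
    rw [hexp, Nat.cast_sub hdpos, Nat.cast_one] at hlog
    have hneg : ((d : ℝ) - 1) * -Real.logb 2 (2 * ε) = -(((d : ℝ) - 1) * Real.logb 2 (2 * ε)) := by
      ring
    rw [hneg]
    linarith
  · -- the regime `M ≤ c d ^ 2`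
    have hdpos : 1 ≤ d := by omega
    have hdR : (2 : ℝ) ≤ (d : ℝ) := by exact_mod_cast hd2
    have hexpnonpos : -(2 * c * (d : ℝ) + 4) ≤ 0 := by nlinarith
    have hε1 : ε ≤ 1 := hεc.trans (Real.rpow_le_one_of_one_le_of_nonpos (by norm_num) hexpnonpos)
    have h2ε : 2 * ε ≤ (2 : ℝ) ^ (-(2 * c * (d : ℝ) + 3)) := by
      have : (2 : ℝ) ^ (-(2 * c * (d : ℝ) + 3)) = 2 * (2 : ℝ) ^ (-(2 * c * (d : ℝ) + 4)) := by
        have h := Real.rpow_add (by norm_num : (0 : ℝ) < 2) 1 (-(2 * c * (d : ℝ) + 4))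
        rw [Real.rpow_one] at h
        rw [← h]
        congr 1
        ring
      rw [this]
      linarith
    have hpow : (2 * ε) ^ (d - 1) ≤ (2 : ℝ) ^ (-(2 * c * (d : ℝ) + 3) * ((d : ℝ) - 1)) := by
      calc (2 * ε) ^ (d - 1) ≤ ((2 : ℝ) ^ (-(2 * c * (d : ℝ) + 3))) ^ (d - 1) :=
            pow_le_pow_left₀ (by positivity) h2ε _
        _ = (2 : ℝ) ^ (-(2 * c * (d : ℝ) + 3) * ((d : ℝ) - 1)) := by
            rw [← Real.rpow_natCast, ← Real.rpow_mul (by norm_num), Nat.cast_sub hdpos]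
            norm_num
    have hM2 : (2 : ℝ) ^ M ≤ (2 : ℝ) ^ (c * (d : ℝ) ^ 2) := by
      rw [← Real.rpow_natCast]
      exact Real.rpow_le_rpow_of_exponent_le (by norm_num) hM
    have h4 : (4 : ℝ) = (2 : ℝ) ^ (2 : ℝ) := by norm_num
    have hreal : (2 : ℝ) ^ M * (4 * (2 * ε) ^ (d - 1)) ≤ 1 / 2 := by
      calc (2 : ℝ) ^ M * (4 * (2 * ε) ^ (d - 1))
          ≤ (2 : ℝ) ^ (c * (d : ℝ) ^ 2) *
              ((2 : ℝ) ^ (2 : ℝ) * (2 : ℝ) ^ (-(2 * c * (d : ℝ) + 3) * ((d : ℝ) - 1))) := by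
            rw [h4]
            gcongr
        _ = (2 : ℝ) ^ (c * (d : ℝ) ^ 2 + (2 + -(2 * c * (d : ℝ) + 3) * ((d : ℝ) - 1))) := by
            rw [Real.rpow_add (by norm_num), Real.rpow_add (by norm_num)]
        _ ≤ (2 : ℝ) ^ (-1 : ℝ) := by
            apply Real.rpow_le_rpow_of_exponent_le (by norm_num)
            nlinarith [mul_nonneg (mul_nonneg hc (by linarith : (0 : ℝ) ≤ (d : ℝ)))
              (by linarith : (0 : ℝ) ≤ (d : ℝ) - 2)]
        _ = 1 / 2 := by
            rw [Real.rpow_neg_one]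
            norm_num
    have hk := key hε1
    have hmono : ENNReal.ofReal ((2 : ℝ) ^ M * (4 * (2 * ε) ^ (d - 1))) ≤ ENNReal.ofReal (1 / 2) :=
      ENNReal.ofReal_le_ofReal hreal
    refine ⟨hk.1.trans hmono, hk.2.trans hmono, fun hsucc => ?_⟩
    have h3 : ENNReal.ofReal (2 / 3) ≤ ENNReal.ofReal (1 / 2) := hsucc.trans (hk.1.trans hmono)
    have h5 : (2 : ℝ) / 3 ≤ 1 / 2 := (ENNReal.ofReal_le_ofReal_iff (by norm_num)).mp h3
    norm_num at h5

end Vale.Agent.Results.P309.H19_CountingBoundBits
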